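import Vale.Agent.P240.R2.H744.Wig
import Vale.Agent.P240.R2.H38.UDefs

/-!
P240, module AUT-SU: `SU_n(K)`, `n ≥ 3`, is transitive on the pairs `(P, Q)` of nondegenerate points with
given `tr (P * Q) ≠ 1`.
-/

set_option autoImplicit false

namespace Vale.Agent.P240.R2.H744

open Finset Matrix
open Vale.Agent.P240.R2.AS
open Vale.Agent.P240.R2.H38 (mt)
open scoped Classical

universe u

section refl

variable {K : Type u} [Field K] [StarRing K] {n : ℕ}

/-- a reflection which moves `y` to `x` and fixes `x^⊥ ∩ y^⊥` -/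
lemma exists_refl' {x y : Fin n → K} {ρ : K} (hρ : star ρ = ρ)
    (hx : star x ⬝ᵥ x = ρ) (hy : star y ⬝ᵥ y = ρ) (hxy : star x ⬝ᵥ y ≠ ρ) :
    ∃ g : GU K n, g.1 *ᵥ y = x ∧
      ∀ z : Fin n → K, star x ⬝ᵥ z = 0 → star y ⬝ᵥ z = 0 → g.1 *ᵥ z = z := by
  set a : K := ρ - star x ⬝ᵥ y with ha
  have ha0 : a ≠ 0 := sub_ne_zero.2 (Ne.symm hxy)
  have hsa : star a = ρ - star y ⬝ᵥ x := by rw [ha, star_sub, hρ, star_dot]
  have hsa0 : star a ≠ 0 := by rwa [Ne, star_eq_zero]
  set w : Fin n → K := x - y with hw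
  have hww : star w ⬝ᵥ w = a + star a := by
    rw [hw, star_sub, sub_dotProduct, dotProduct_sub, dotProduct_sub, hx, hy, hsa, ha]
    ring
  have hwy : star w ⬝ᵥ y = - a := by
    rw [hw, star_sub, sub_dotProduct, hy, ha]
    ring
  have hwz : ∀ z : Fin n → K, star x ⬝ᵥ z = 0 → star y ⬝ᵥ z = 0 → star w ⬝ᵥ z = 0 := by
    intro z h1 h2
    rw [hw, star_sub, sub_dotProduct, h1, h2, sub_zero]
  have hst : star (vecMulVec w (star w)) = vecMulVec w (star w) := by
    rw [star_eq_conjTranspose, conjTranspose_vecMulVec, star_star]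
  have hsq : vecMulVec w (star w) * vecMulVec w (star w) =
      (a + star a) • vecMulVec w (star w) := by
    rw [vecMulVec_mul_vecMulVec, hww, vecMulVec_smul]
  clear_value w
  refine ⟨⟨1 - a⁻¹ • vecMulVec w (star w), ?_⟩, ?_, ?_⟩
  · rw [Matrix.mem_unitaryGroup_iff, star_sub, star_one, star_smul, hst, sub_mul, mul_sub, mul_sub,
      one_mul, mul_one, one_mul, smul_mul_smul_comm, hsq, smul_smul]
    have hc : a⁻¹ * star (a⁻¹) * (a + star a) = a⁻¹ + star (a⁻¹) := by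
      rw [star_inv₀]
      field_simp
      ring
    rw [hc, add_smul]
    abel
  · show (1 - a⁻¹ • vecMulVec w (star w)) *ᵥ y = x
    rw [sub_mulVec, one_mulVec, smul_mulVec, vecMulVec_mulVec, hwy]
    simp only [op_smul_eq_smul, smul_smul]
    rw [mul_neg, inv_mul_cancel₀ ha0, hw]
    simp
  · intro z h1 h2
    show (1 - a⁻¹ • vecMulVec w (star w)) *ᵥ z = z
    rw [sub_mulVec, one_mulVec, smul_mulVec, vecMulVec_mulVec, hwz z h1 h2]
    simp

/-- move `u` to `v` inside `y^⊥` -/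
lemma exists_refl2 {u v y : Fin n → K} {ρ s : K} (hρ : star ρ = ρ) (hρ0 : ρ ≠ 0)
    (hs : s * star s = 1) (hs1 : s ≠ 1)
    (hu : star u ⬝ᵥ u = ρ) (hv : star v ⬝ᵥ v = ρ) (huy : star u ⬝ᵥ y = 0) (hvy : star v ⬝ᵥ y = 0) :
    ∃ g : GU K n, g.1 *ᵥ u = v ∧ g.1 *ᵥ y = y := by
  have hsu : star (s • u) ⬝ᵥ (s • u) = ρ := by
    rw [star_smul, smul_dotProduct, dotProduct_smul, hu, smul_eq_mul, smul_eq_mul]
    calc star s * (s * ρ) = (s * star s) * ρ := by ring
      _ = ρ := by rw [hs, one_mul]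
  by_cases h : star v ⬝ᵥ u = ρ
  · obtain ⟨g1, h1, h1'⟩ := exists_refl' (x := s • u) (y := u) hρ hsu hu (by
      rw [star_smul, smul_dotProduct, hu, smul_eq_mul]
      intro h2
      have h3 : star s = 1 := mul_right_cancel₀ hρ0 (by rw [h2, one_mul])
      apply hs1
      rw [← star_star s, h3, star_one])
    obtain ⟨g2, h2, h2'⟩ := exists_refl' (x := v) (y := s • u) hρ hv hsu (by
      rw [dotProduct_smul, h, smul_eq_mul]
      intro h2
      exact hs1 (mul_right_cancel₀ hρ0 (by rw [h2, one_mul])))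
    refine ⟨g2 * g1, ?_, ?_⟩
    · show (g2.1 * g1.1) *ᵥ u = v
      rw [← mulVec_mulVec, h1, h2]
    · show (g2.1 * g1.1) *ᵥ y = y
      rw [← mulVec_mulVec, h1' y (by rw [star_smul, smul_dotProduct, huy, smul_zero]) huy,
        h2' y hvy (by rw [star_smul, smul_dotProduct, huy, smul_zero])]
  · obtain ⟨g, h1, h2⟩ := exists_refl' (x := v) (y := u) hρ hv hu h
    exact ⟨g, h1, h2 y hvy huy⟩

end refl

section trans

variable {K : Type u} [Field K] [Fintype K] [StarRing K] {q n : ℕ}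

omit [Fintype K] in
lemma conj_of_mulVec {g : GU K n} {x x' : Fin n → K} (h : g.1 *ᵥ x = x') :
    g.1 * vecMulVec x (star x) * star g.1 = vecMulVec x' (star x') := by
  rw [← h, star_eq_conjTranspose, mul_vecMulVec, vecMulVec_mul, star_mulVec]

omit [Fintype K] in
lemma smul_proj' {x : Fin n → K} {c : K} (hc : c * star c = 1) :
    vecMulVec (c • x) (star (c • x)) = vecMulVec x (star x) :=
  H715.smul_proj (by rw [mul_comm, hc])

omit [Fintype K] in
lemma mulVec_dot (g : GU K n) (x y : Fin n → K) :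
    star (g.1 *ᵥ x) ⬝ᵥ (g.1 *ᵥ y) = star x ⬝ᵥ y := by
  rw [star_mulVec, ← dotProduct_mulVec, mulVec_mulVec, ← star_eq_conjTranspose,
    Matrix.mem_unitaryGroup_iff'.1 g.2, one_mulVec]

omit [Fintype K] in
lemma trace_vec (x y : Fin n → K) :
    (vecMulVec x (star x) * vecMulVec y (star y)).trace = (star x ⬝ᵥ y) * star (star x ⬝ᵥ y) := by
  rw [vecMulVec_mul_vecMulVec, vecMulVec_smul, trace_smul, trace_vecMulVec, smul_eq_mul, star_dot,
    dotProduct_comm x (star y)]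

/-- the unitary group is transitive on the pairs of nondegenerate points with given trace `≠ 1` -/
theorem exists_move_GU (hq : 2 ≤ q) (hK : Nat.card K = q ^ 2) (hs : ∀ x : K, star x = x ^ q)
    (P Q P' Q' : Ln K n) (h : (P.1 * Q.1).trace = (P'.1 * Q'.1).trace)
    (h1 : (P.1 * Q.1).trace ≠ 1) :
    ∃ g : GU K n, g.1 * P.1 * star g.1 = P'.1 ∧ g.1 * Q.1 * star g.1 = Q'.1 := by
  obtain ⟨s, hs1, hs2⟩ := exists_phase hq hK hs
  have hs3 : s ≠ 1 := by
    rintro rfl
    exact hs2 (star_one K)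
  have hs4 : star s ≠ 1 := by
    intro h
    apply hs3
    rw [← star_star s, h, star_one]
  obtain ⟨x, hx, hP⟩ := P.2
  obtain ⟨y, hy, hQ⟩ := Q.2
  obtain ⟨x', hx', hP'⟩ := P'.2
  obtain ⟨y', hy', hQ'⟩ := Q'.2
  -- move `y` to a multiple of `y'`
  obtain ⟨c, hc1, hc2⟩ : ∃ c : K, c * star c = 1 ∧ star (c • y') ⬝ᵥ y ≠ 1 := by
    by_cases h : star y' ⬝ᵥ y = 1
    · refine ⟨s, hs1, ?_⟩
      rw [star_smul, smul_dotProduct, h, smul_eq_mul, mul_one]
      exact hs4
    · exact ⟨1, by rw [star_one, mul_one], by rwa [one_smul]⟩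
  have hcy : star (c • y') ⬝ᵥ (c • y') = 1 := by
    rw [star_smul, smul_dotProduct, dotProduct_smul, hy', smul_eq_mul, smul_eq_mul, mul_one,
      mul_comm, hc1]
  obtain ⟨g0, hg0⟩ := exists_refl hcy hy hc2
  -- the new pair
  set z : Fin n → K := c • y' with hz
  have hQz : Q'.1 = vecMulVec z (star z) := by rw [hQ', hz, smul_proj' hc1]
  set x0 : Fin n → K := g0.1 *ᵥ x with hx0
  have hx0n : star x0 ⬝ᵥ x0 = 1 := by rw [hx0, mulVec_dot, hx]
  have ht0 : (star x0 ⬝ᵥ z) * star (star x0 ⬝ᵥ z) = (P.1 * Q.1).trace := by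
    rw [hP, hQ, trace_vec, hx0, ← hg0, mulVec_dot]
  have ht' : (star x' ⬝ᵥ z) * star (star x' ⬝ᵥ z) = (P.1 * Q.1).trace := by
    rw [h, hP', hQz, trace_vec]
  -- adjust the phase of `x'`
  obtain ⟨d, hd1, hd2⟩ : ∃ d : K, d * star d = 1 ∧ star (d • x') ⬝ᵥ z = star x0 ⬝ᵥ z := by
    by_cases h0 : star x' ⬝ᵥ z = 0
    · refine ⟨1, by rw [star_one, mul_one], ?_⟩
      rw [one_smul, h0]
      rw [h0, zero_mul] at ht'
      rw [← ht'] at ht0
      rcases mul_eq_zero.1 ht0 with h | h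
      · exact h.symm
      · exact (star_eq_zero.1 h).symm
    · refine ⟨star ((star x0 ⬝ᵥ z) / (star x' ⬝ᵥ z)), ?_, ?_⟩
      · rw [star_star, star_div₀, div_mul_div_comm, mul_comm (star _), ht0, mul_comm (star _), ht',
          div_self]
        rw [← ht']
        exact mul_ne_zero h0 (by rwa [Ne, star_eq_zero])
      · rw [star_smul, star_star, smul_dotProduct, smul_eq_mul, div_mul_cancel₀ _ h0]
  set x1 : Fin n → K := d • x' with hx1
  have hP1 : P'.1 = vecMulVec x1 (star x1) := by rw [hP', hx1, smul_proj' hd1]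
  have hx1n : star x1 ⬝ᵥ x1 = 1 := by
    rw [hx1, star_smul, smul_dotProduct, dotProduct_smul, hx', smul_eq_mul, smul_eq_mul, mul_one,
      mul_comm, hd1]
  -- components orthogonal to `z`
  set α : K := star z ⬝ᵥ x0 with hα
  have hα0 : star x0 ⬝ᵥ z = star α := by rw [hα, star_dot]
  have hα1 : star z ⬝ᵥ x1 = α := by rw [← star_dot, hd2, hα0, star_star]
  have hα1' : star x1 ⬝ᵥ z = star α := by rw [hd2, hα0]
  have hαn : star α * α = (P.1 * Q.1).trace := by rw [← ht0, hα0, star_star]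
  clear_value α x1 x0 z
  have hcomp : ∀ v : Fin n → K, star v ⬝ᵥ v = 1 → star z ⬝ᵥ v = α → star v ⬝ᵥ z = star α →
      star (v - α • z) ⬝ᵥ (v - α • z) = 1 - star α * α ∧ star (v - α • z) ⬝ᵥ z = 0 := by
    intro v e1 e2 e3
    constructor
    · rw [star_sub, sub_dotProduct, dotProduct_sub, dotProduct_sub, star_smul, smul_dotProduct,
        smul_dotProduct, dotProduct_smul, dotProduct_smul, e1, e2, e3, hcy]
      simp only [smul_eq_mul]
      ring
    · rw [star_sub, sub_dotProduct, star_smul, smul_dotProduct, e3, hcy, smul_eq_mul, mul_one,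
        sub_self]
  obtain ⟨a1, a2⟩ := hcomp x0 hx0n hα.symm hα0
  obtain ⟨b1, b2⟩ := hcomp x1 hx1n hα1 hα1'
  obtain ⟨g1, hg1, hg2⟩ := exists_refl2 (u := x0 - α • z) (v := x1 - α • z) (y := z)
    (ρ := 1 - star α * α) (s := s) (by
      rw [star_sub, star_one, star_mul, star_star]) (by
      rw [hαn]
      exact sub_ne_zero.2 (Ne.symm h1)) hs1 hs3 a1 b1 a2 b2
  have hg3 : g1.1 *ᵥ x0 = x1 := by
    have : x0 = (x0 - α • z) + α • z := by rw [sub_add_cancel]
    rw [this, mulVec_add, mulVec_smul, hg1, hg2, sub_add_cancel]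
  refine ⟨g1 * g0, ?_, ?_⟩
  · rw [hP, hP1]
    apply conj_of_mulVec
    show (g1.1 * g0.1) *ᵥ x = x1
    rw [← mulVec_mulVec, ← hx0, hg3]
  · rw [hQ, hQz]
    apply conj_of_mulVec
    show (g1.1 * g0.1) *ᵥ y = z
    rw [← mulVec_mulVec, hg0, hg2]

/-- conjugation by a unitary matrix -/
def cj (g : GU K n) (M : Matrix (Fin n) (Fin n) K) : Matrix (Fin n) (Fin n) K :=
  g.1 * M * star g.1

omit [Fintype K] in
lemma cj_mul (g h : GU K n) (M : Matrix (Fin n) (Fin n) K) : cj (g * h) M = cj g (cj h M) := by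
  show (g.1 * h.1) * M * star (g.1 * h.1) = g.1 * (h.1 * M * star h.1) * star g.1
  rw [star_mul]
  simp only [Matrix.mul_assoc]

omit [Fintype K] in
lemma cj_one (M : Matrix (Fin n) (Fin n) K) : cj 1 M = M := by
  show (1 : Matrix (Fin n) (Fin n) K) * M * star (1 : Matrix (Fin n) (Fin n) K) = M
  rw [star_one, one_mul, mul_one]

omit [Fintype K] in
lemma cj_inv (g : GU K n) (M : Matrix (Fin n) (Fin n) K) : cj g⁻¹ (cj g M) = M := by
  rw [← cj_mul, inv_mul_cancel, cj_one]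

omit [Fintype K] in
lemma det_norm (g : GU K n) : g.1.det * star g.1.det = 1 := by
  have h := congrArg Matrix.det (Matrix.mem_unitaryGroup_iff.1 g.2)
  rwa [Matrix.det_mul, Matrix.det_one, star_eq_conjTranspose, Matrix.det_conjTranspose] at h

/-- the diagonal matrix with one entry `δ` -/
def dd (k : Fin n) (δ : K) (hδ : δ * star δ = 1) : GU K n :=
  ⟨Matrix.diagonal (Function.update 1 k δ), by
    rw [Matrix.mem_unitaryGroup_iff, Matrix.star_eq_conjTranspose, Matrix.diagonal_conjTranspose,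
      Matrix.diagonal_mul_diagonal, ← Matrix.diagonal_one]
    congr 1
    funext i
    by_cases h : i = k
    · subst h
      simp [hδ]
    · simp [h]⟩

omit [Fintype K] in
lemma dd_det (k : Fin n) (δ : K) (hδ : δ * star δ = 1) : (dd k δ hδ).1.det = δ := by
  show (Matrix.diagonal (Function.update 1 k δ)).det = δ
  rw [Matrix.det_diagonal, Finset.prod_update_of_mem (Finset.mem_univ k)]
  simp

omit [Fintype K] in
lemma dd_cj (k : Fin n) (δ : K) (hδ : δ * star δ = 1) (M : Matrix (Fin n) (Fin n) K)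
    (h1 : ∀ l, M k l = 0) (h2 : ∀ l, M l k = 0) : cj (dd k δ hδ) M = M := by
  ext i j
  show (Matrix.diagonal (Function.update 1 k δ) * M *
    star (Matrix.diagonal (Function.update 1 k δ))) i j = M i j
  rw [Matrix.star_eq_conjTranspose, Matrix.diagonal_conjTranspose, Matrix.mul_diagonal,
    Matrix.diagonal_mul]
  by_cases hi : i = k
  · subst hi
    rw [h1]
    simp
  · by_cases hj : j = k
    · subst hj
      rw [h2]
      simp
    · simp [hi, hj]

/-- `SU_n(K)`, `n ≥ 3`, is transitive on the pairs of nondegenerate points with given trace `≠ 1` -/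
theorem exists_move (hq : 2 ≤ q) (hK : Nat.card K = q ^ 2) (hs : ∀ x : K, star x = x ^ q)
    (hn : 3 ≤ n) (P Q P' Q' : Ln K n) (h : (P.1 * Q.1).trace = (P'.1 * Q'.1).trace)
    (h1 : (P.1 * Q.1).trace ≠ 1) :
    ∃ g : H38.SU K n, mt g * P.1 * star (mt g) = P'.1 ∧ mt g * Q.1 * star (mt g) = Q'.1 := by
  obtain ⟨m, rfl⟩ : ∃ m, n = m + 3 := ⟨n - 3, by omega⟩
  have v0 : ((0 : Fin (m + 3)) : ℕ) = 0 := rfl
  have v1 : ((1 : Fin (m + 3)) : ℕ) = 1 := Fin.val_one (m + 1)
  have v2 : ((2 : Fin (m + 3)) : ℕ) = 2 := Fin.val_two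
  have h01 : (0 : Fin (m + 3)) ≠ 1 := by
    intro h
    have := congrArg Fin.val h
    omega
  have h02 : (0 : Fin (m + 3)) ≠ 2 := by
    intro h
    have := congrArg Fin.val h
    omega
  have h12 : (1 : Fin (m + 3)) ≠ 2 := by
    intro h
    have := congrArg Fin.val h
    omega
  obtain ⟨g, hg1, hg2⟩ := exists_move_GU hq hK hs P Q P' Q' h h1
  obtain ⟨a, ha⟩ := exists_norm' hK hs (trace_fix P' Q')
  obtain ⟨b, hb⟩ := exists_norm' (c := 1 - (P'.1 * Q'.1).trace) hK hs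
    (by rw [star_sub, star_one, trace_fix])
  have hu : star (v3 (0 : Fin (m + 3)) 1 2 a b 0) ⬝ᵥ v3 0 1 2 a b 0 = 1 := by
    rw [v3_dot h01 h02 h12, ha, hb, zero_mul]
    ring
  obtain ⟨g', hg1', hg2'⟩ := exists_move_GU hq hK hs P' Q' (ln _ hu) (E 0) (by
    rw [E_val, trace_E, ln_apply, v3_i h01 h02, ha]) (by rw [← h]; exact h1)
  have hδ : (g.1.det)⁻¹ * star ((g.1.det)⁻¹) = 1 := by
    rw [star_inv₀, ← mul_inv, det_norm, inv_one]
  have hR : cj (dd 2 _ hδ) (ln _ hu).1 = (ln _ hu).1 := by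
    have h2 : (ln _ hu).1 2 2 = 0 := by rw [ln_apply, v3_k h02 h12, zero_mul]
    exact dd_cj _ _ _ _ (fun l => Ln_zero _ h2 l) (fun l => Ln_zero' _ h2 l)
  have hS : cj (dd 2 _ hδ) (E (0 : Fin (m + 3))).1 = (E (0 : Fin (m + 3))).1 := by
    have h2 : (E (K := K) (0 : Fin (m + 3))).1 2 2 = 0 := by
      rw [E_val, Matrix.single_apply, if_neg]
      exact fun h => h02 h.1
    exact dd_cj _ _ _ _ (fun l => Ln_zero _ h2 l) (fun l => Ln_zero' _ h2 l)
  set k : GU K (m + 3) := g'⁻¹ * (dd 2 _ hδ * (g' * g)) with hk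
  have hdet : k.1.det = 1 := by
    have e : k.1 = (g'⁻¹).1 * ((dd 2 _ hδ).1 * (g'.1 * g.1)) := rfl
    have e2 : (g'⁻¹).1.det * g'.1.det = 1 := by
      rw [← Matrix.det_mul]
      have : (g'⁻¹).1 * g'.1 = (g'⁻¹ * g').1 := rfl
      rw [this, inv_mul_cancel]
      exact Matrix.det_one
    have e3 : g.1.det ≠ 0 := by
      intro h0
      have := det_norm g
      rw [h0, zero_mul] at this
      exact zero_ne_one this
    rw [e, Matrix.det_mul, Matrix.det_mul, Matrix.det_mul, dd_det]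
    calc (g'⁻¹).1.det * ((g.1.det)⁻¹ * (g'.1.det * g.1.det))
        = ((g'⁻¹).1.det * g'.1.det) * ((g.1.det)⁻¹ * g.1.det) := by ring
      _ = 1 := by rw [e2, inv_mul_cancel₀ e3, one_mul]
  refine ⟨⟨k, hdet⟩, ?_, ?_⟩
  · show cj k P.1 = P'.1
    have e1 : cj g P.1 = P'.1 := hg1
    have e2 : cj g' P'.1 = (ln _ hu).1 := hg1'
    rw [hk, cj_mul, cj_mul, cj_mul, e1, e2, hR, ← e2, cj_inv]
  · show cj k Q.1 = Q'.1
    have e1 : cj g Q.1 = Q'.1 := hg2
    have e2 : cj g' Q'.1 = (E (0 : Fin (m + 3))).1 := hg2'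
    rw [hk, cj_mul, cj_mul, cj_mul, e1, e2, hS, ← e2, cj_inv]

end trans

end Vale.Agent.P240.R2.H744
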