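import Vale.Agent.P240.R2.H923.TRStmts

/-!
P240 (helper744): ROW M of `H923.TR` (TR for `q` even): the numbers.
`A` abelian of exponent `p` in `S_n`, `D` a set of vectors of `p`-th roots of unity that are
semi-invariant under `A`: `|A| |D| ≤ p ^ (n - 2)` if `A ≠ 1` and `p ≥ 5`.
-/

set_option autoImplicit false
set_option linter.all false

namespace Vale.Agent.P240.R2.H744

open scoped Classical

universe u

theorem num_a {p w : ℕ} (hp : 5 ≤ p) (hw : 5 ≤ w) : p * w ^ 2 ≤ p ^ (w - 2) := by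
  obtain ⟨k, rfl⟩ : ∃ k, w = k + 5 := ⟨w - 5, by omega⟩
  have h : (k + 5) ^ 2 ≤ p ^ (k + 2) := by
    clear hw
    induction k with
    | zero => simpa using Nat.pow_le_pow_left hp 2
    | succ k ih =>
      calc (k + 1 + 5) ^ 2 ≤ 5 * (k + 5) ^ 2 := by nlinarith [Nat.zero_le (k ^ 2), Nat.zero_le k]
        _ ≤ p * p ^ (k + 2) := Nat.mul_le_mul hp ih
        _ = p ^ (k + 1 + 2) := by ring
  calc p * (k + 5) ^ 2 ≤ p * p ^ (k + 2) := Nat.mul_le_mul_left _ h
    _ = p ^ (k + 5 - 2) := by
      rw [← pow_succ']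
      congr 1

/-- a finite group has at most `|A|` characters with values in a field -/
theorem card_char_le (A : Type*) [Group A] [Finite A] (K : Type*) [Field K] [Finite K] :
    Nat.card (A →* K) ≤ Nat.card A := by
  haveI : Fintype A := Fintype.ofFinite A
  haveI : Finite (A →* K) := Finite.of_injective (fun f : A →* K => (f : A → K))
    DFunLike.coe_injective
  haveI : Fintype (A →* K) := Fintype.ofFinite _
  have h := (linearIndependent_monoidHom A K).fintype_card_le_finrank
  rw [Module.finrank_fintype_fun_eq_card] at h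
  rwa [Nat.card_eq_fintype_card, Nat.card_eq_fintype_card]

/-- the number of `p`-th roots of unity -/
theorem card_roots_le (K : Type*) [Field K] {p : ℕ} (hp : 0 < p) :
    Nat.card {x : K // x ^ p = 1} ≤ p := by
  have hsub : {x : K | x ^ p = 1} ⊆ ((Polynomial.nthRoots p (1 : K)).toFinset : Set K) := by
    intro x hx
    simp only [Finset.mem_coe, Multiset.mem_toFinset]
    rw [Polynomial.mem_nthRoots hp]
    exact hx
  calc Nat.card {x : K // x ^ p = 1} = Set.ncard {x : K | x ^ p = 1} := rfl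
    _ ≤ Set.ncard ((Polynomial.nthRoots p (1 : K)).toFinset : Set K) :=
        Set.ncard_le_ncard hsub (Finset.finite_toSet _)
    _ = (Polynomial.nthRoots p (1 : K)).toFinset.card := Set.ncard_coe_finset _
    _ ≤ Multiset.card (Polynomial.nthRoots p (1 : K)) := Multiset.toFinset_card_le _
    _ ≤ p := Polynomial.card_nthRoots p 1

theorem rowM : Vale.Agent.P240.R2.H923.TR.StmtM.{u} := by
  intro K _ _ p n hpr hp A hab hpow hne D hD _
  have hp0 : 0 < p := by omega
  -- a moved point
  obtain ⟨a0, ha0, x0, hx0⟩ : ∃ a ∈ A, ∃ x, a x ≠ x := by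
    by_contra hcon
    push Not at hcon
    exact hne ((Subgroup.eq_bot_iff_forall A).2 fun a ha => Equiv.ext (hcon a ha))
  -- the orbits
  let Ω := MulAction.orbitRel.Quotient A (Fin n)
  let w : Ω → ℕ := fun ω => Nat.card ω.orbit
  have hn : n = ∑ ω, w ω := by
    have h := Nat.card_congr (MulAction.selfEquivSigmaOrbits' A (Fin n))
    rw [Nat.card_sigma, Nat.card_eq_fintype_card, Fintype.card_fin] at h
    exact h
  let rep : Ω → Fin n := fun ω => Quotient.out ω
  have horb : ∀ ω : Ω, ω.orbit = MulAction.orbit A (rep ω) := fun ω =>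
    MulAction.orbitRel.Quotient.orbit_eq_orbit_out ω Quotient.out_eq'
  have hrep : ∀ x : Fin n, ∃ (ω : Ω) (a : A), a.1 (rep ω) = x := by
    intro x
    have h : (Quotient.mk _ x : Ω) = Quotient.mk _ (rep (Quotient.mk _ x)) :=
      (Quotient.out_eq' (Quotient.mk _ x : Ω)).symm
    have h2 : x ∈ MulAction.orbit A (rep (Quotient.mk _ x)) := by
      have := Quotient.exact h
      exact this
    obtain ⟨a, ha⟩ := h2
    exact ⟨_, a, ha⟩
  -- the sizes of the orbits
  have hpg : IsPGroup p A := by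
    intro a
    refine ⟨1, ?_⟩
    rw [pow_one]
    exact Subtype.ext (hpow a.1 a.2)
  have hw : ∀ ω, ∃ k : ℕ, w ω = p ^ k := by
    intro ω
    obtain ⟨k, hk⟩ := hpg.card_orbit (rep ω)
    refine ⟨k, ?_⟩
    rw [← hk]
    show Nat.card ω.orbit = _
    rw [horb ω]
  have hw1 : ∀ ω, 1 ≤ w ω := by
    intro ω
    obtain ⟨k, hk⟩ := hw ω
    rw [hk]
    exact Nat.one_le_pow _ _ hp0
  have hw2 : ∀ ω, w ω = 1 ∨ 5 ≤ w ω := by
    intro ω
    obtain ⟨k, hk⟩ := hw ω
    rcases Nat.eq_zero_or_pos k with h | h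
    · left; rw [hk, h, pow_zero]
    · right
      rw [hk]
      calc 5 ≤ p := hp
        _ = p ^ 1 := (pow_one p).symm
        _ ≤ p ^ k := Nat.pow_le_pow_right hp0 h
  -- a big orbit
  obtain ⟨ω1, hω1⟩ : ∃ ω, 5 ≤ w ω := by
    obtain ⟨ω, a, ha⟩ := hrep x0
    refine ⟨ω, (hw2 ω).resolve_left ?_⟩
    intro h1
    have hs : Subsingleton ω.orbit := (Nat.card_eq_one_iff_unique.1 h1).1
    have m1 : x0 ∈ ω.orbit := by
      rw [horb]; exact ⟨a, ha⟩
    have m2 : a0 x0 ∈ ω.orbit := by
      rw [horb]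
      refine ⟨⟨a0, ha0⟩ * a, ?_⟩
      show a0 (a.1 (rep ω)) = a0 x0
      rw [ha]
    have := hs.elim ⟨x0, m1⟩ ⟨a0 x0, m2⟩
    exact hx0 (congrArg Subtype.val this).symm
  -- `A` is small
  have hA : Nat.card A ≤ ∏ ω, w ω := by
    have h : Function.Injective (fun (a : A) (ω : Ω) =>
        (⟨a.1 (rep ω), by rw [horb]; exact ⟨a, rfl⟩⟩ : ω.orbit)) := by
      intro a b hab'
      apply Subtype.ext
      apply Equiv.ext
      intro x
      obtain ⟨ω, g, rfl⟩ := hrep x
      have h1 : a.1 (rep ω) = b.1 (rep ω) := congrArg Subtype.val (congrFun hab' ω)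
      have h2 : a.1 (g.1 (rep ω)) = g.1 (a.1 (rep ω)) := by
        have := hab a.1 a.2 g.1 g.2
        exact congrArg (fun f : Equiv.Perm (Fin n) => f (rep ω)) this
      have h3 : b.1 (g.1 (rep ω)) = g.1 (b.1 (rep ω)) := by
        have := hab b.1 b.2 g.1 g.2
        exact congrArg (fun f : Equiv.Perm (Fin n) => f (rep ω)) this
      rw [h2, h3, h1]
    have h2 := Nat.card_le_card_of_injective _ h
    rwa [Nat.card_pi] at h2
  -- `D` is small
  have hDc : Nat.card D ≤ (∏ ω, w ω) * p ^ (Fintype.card Ω) := by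
    have hne0 : ∀ c ∈ D, ∀ i, c i ≠ 0 := by
      intro c hc i h0
      have := (hD c hc).1 i
      rw [h0, zero_pow (by omega)] at this
      exact zero_ne_one this
    have hz : ∀ c ∈ D, ∀ a ∈ A, ∀ i, c (a i) = (c (a x0) / c x0) * c i := by
      intro c hc a ha i
      obtain ⟨z, hz⟩ := (hD c hc).2 a ha
      rw [hz x0, hz i, mul_div_assoc, div_self (hne0 c hc x0), mul_one]
    let chr : D → (A →* K) := fun c =>
      { toFun := fun a => c.1 (a.1 x0) / c.1 x0
        map_one' := by
          show c.1 x0 / c.1 x0 = 1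
          exact div_self (hne0 c.1 c.2 x0)
        map_mul' := fun a b => by
          show c.1 (a.1 (b.1 x0)) / c.1 x0 = _
          rw [hz c.1 c.2 a.1 a.2 (b.1 x0)]
          ring }
    let F : D → (A →* K) × (Ω → {x : K // x ^ p = 1}) := fun c =>
      (chr c, fun ω => ⟨c.1 (rep ω), (hD c.1 c.2).1 _⟩)
    have hF : Function.Injective F := by
      intro c d hcd
      apply Subtype.ext
      funext x
      obtain ⟨ω, a, rfl⟩ := hrep x
      have h1 : c.1 (a.1 x0) / c.1 x0 = d.1 (a.1 x0) / d.1 x0 :=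
        congrArg (fun f : (A →* K) × (Ω → {x : K // x ^ p = 1}) => f.1 a) hcd
      have h2 : c.1 (rep ω) = d.1 (rep ω) :=
        congrArg (fun f : (A →* K) × (Ω → {x : K // x ^ p = 1}) => (f.2 ω).1) hcd
      rw [hz c.1 c.2 a.1 a.2, hz d.1 d.2 a.1 a.2, h1, h2]
    haveI : Finite (A →* K) := Finite.of_injective (fun f : A →* K => (f : A → K))
      DFunLike.coe_injective
    have h := Nat.card_le_card_of_injective F hF
    rw [Nat.card_prod, Nat.card_pi] at h
    refine h.trans (Nat.mul_le_mul ((card_char_le A K).trans hA) ?_)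
    refine (Finset.prod_le_pow_card _ _ p fun ω _ => card_roots_le K hp0).trans ?_
    exact le_of_eq rfl
  -- the numbers
  have key : ∏ ω, (p * w ω ^ 2) ≤ p ^ (n - 2) := by
    have h1 : ∀ ω, p * w ω ^ 2 ≤ p ^ (w ω) := by
      intro ω
      rcases hw2 ω with h | h
      · rw [h]; simp
      · exact (num_a hp h).trans (Nat.pow_le_pow_right hp0 (by omega))
    rw [← Finset.mul_prod_erase Finset.univ (fun ω => p * w ω ^ 2) (Finset.mem_univ ω1)]
    calc (p * w ω1 ^ 2) * ∏ ω ∈ Finset.univ.erase ω1, (p * w ω ^ 2)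
        ≤ p ^ (w ω1 - 2) * ∏ ω ∈ Finset.univ.erase ω1, p ^ (w ω) :=
          Nat.mul_le_mul (num_a hp hω1) (Finset.prod_le_prod' fun ω _ => h1 ω)
      _ = p ^ (n - 2) := by
          rw [Finset.prod_pow_eq_pow_sum, ← pow_add]
          congr 1
          have : n = w ω1 + ∑ ω ∈ Finset.univ.erase ω1, w ω := by
            rw [Finset.add_sum_erase _ _ (Finset.mem_univ ω1)]
            exact hn
          omega
  calc Nat.card A * Nat.card D
      ≤ (∏ ω, w ω) * ((∏ ω, w ω) * p ^ (Fintype.card Ω)) := Nat.mul_le_mul hA hDc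
    _ = ∏ ω, (p * w ω ^ 2) := by
        rw [Finset.prod_mul_distrib, Finset.prod_const, Finset.prod_pow, Finset.card_univ]
        ring
    _ ≤ p ^ (n - 2) := key

end Vale.Agent.P240.R2.H744
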