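import Vale.Agent.P240.R2.AS.Defs
import Vale.Agent.P240.R2.H472.Nrm
import Vale.Agent.P240.R2.H472.M2b
import Vale.Agent.P240.R2.H715.CardU

/-!
P240, module AUT-SU, part W: maps of the set of nondegenerate points of `K ^ n` with
`tr (f P * f Q) = κ (tr (P * Q))` are semilinear (Gleason and Wigner over a finite field).
This file: generalities on letters.
-/

set_option autoImplicit false

namespace Vale.Agent.P240.R2.H744

open Finset Matrix
open Vale.Agent.P240.R2.AS
open scoped Classical

universe u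

section gen

variable {K : Type u} [Field K] [StarRing K] {n : ℕ}

lemma star_dot (v w : Fin n → K) : star (star v ⬝ᵥ w) = star w ⬝ᵥ v := by
  rw [star_dotProduct]
  simp [dotProduct_comm]

/-- the letter of a unit vector -/
def ln (x : Fin n → K) (hx : star x ⬝ᵥ x = 1) : Ln K n := ⟨vecMulVec x (star x), x, hx, rfl⟩

lemma ln_apply (x : Fin n → K) (hx : star x ⬝ᵥ x = 1) (i j : Fin n) :
    (ln x hx).1 i j = x i * star (x j) := rfl

lemma Ln_star (P : Ln K n) (i j : Fin n) : star (P.1 i j) = P.1 j i := by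
  obtain ⟨x, hx, h⟩ := P.2
  rw [h, vecMulVec_apply, vecMulVec_apply, Pi.star_apply, Pi.star_apply, star_mul, star_star]

lemma Ln_mul (P : Ln K n) (i j k : Fin n) : P.1 i j * P.1 j k = P.1 j j * P.1 i k := by
  obtain ⟨x, hx, h⟩ := P.2
  simp only [h, vecMulVec_apply, Pi.star_apply]
  ring

lemma Ln_trace (P : Ln K n) : P.1.trace = 1 := by
  obtain ⟨x, hx, h⟩ := P.2
  rw [h, trace_vecMulVec, dotProduct_comm, hx]

lemma Ln_zero (P : Ln K n) {i : Fin n} (h0 : P.1 i i = 0) (j : Fin n) : P.1 i j = 0 := by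
  obtain ⟨x, hx, h⟩ := P.2
  simp only [h, vecMulVec_apply, Pi.star_apply] at h0 ⊢
  rcases mul_eq_zero.1 h0 with h | h
  · rw [h, zero_mul]
  · rw [star_eq_zero] at h
    rw [h, zero_mul]

lemma Ln_zero' (P : Ln K n) {i : Fin n} (h0 : P.1 i i = 0) (j : Fin n) : P.1 j i = 0 := by
  rw [← Ln_star, Ln_zero P h0, star_zero]

/-- the standard letter -/
def E (i : Fin n) : Ln K n := ⟨Matrix.single i i 1, Pi.single i 1, by
  simp, by
  ext a b
  rw [vecMulVec_apply, Matrix.single_apply, Pi.star_apply]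
  by_cases ha : a = i
  · subst ha
    by_cases hb : b = a
    · subst hb
      simp
    · simp [hb, Ne.symm hb]
  · simp [ha, Ne.symm ha]⟩

lemma E_val (i : Fin n) : (E (K := K) i).1 = Matrix.single i i 1 := rfl

/-- rank one projections with `tr (P Q) = 0` are orthogonal -/
lemma mul_eq_zero_of_trace (P Q : Ln K n) (h : (P.1 * Q.1).trace = 0) : P.1 * Q.1 = 0 := by
  obtain ⟨x, hx, hP⟩ := P.2
  obtain ⟨y, hy, hQ⟩ := Q.2
  rw [hP, hQ, vecMulVec_mul_vecMulVec, vecMulVec_smul] at h ⊢
  rw [trace_smul, trace_vecMulVec, smul_eq_mul] at h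
  have h2 : x ⬝ᵥ star y = star (star x ⬝ᵥ y) := by
    rw [star_dot, dotProduct_comm]
  rw [h2] at h
  rcases mul_eq_zero.1 h with h | h
  · rw [h, zero_smul]
  · rw [star_eq_zero] at h
    rw [h, zero_smul]

lemma trace_self (P : Ln K n) : (P.1 * P.1).trace = 1 := by
  obtain ⟨x, hx, hP⟩ := P.2
  rw [hP, vecMulVec_mul_vecMulVec, hx, one_smul, trace_vecMulVec, dotProduct_comm, hx]

omit [StarRing K] in
lemma trace_E (P : Matrix (Fin n) (Fin n) K) (i : Fin n) :
    (P * Matrix.single i i 1).trace = P i i := by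
  rw [trace_mul_comm]
  simp [Matrix.trace_single_mul]

omit [StarRing K] in
/-- the trace of a product with a matrix supported on two indices -/
lemma trace_two (A B : Matrix (Fin n) (Fin n) K) {i j : Fin n} (hij : i ≠ j)
    (h1 : ∀ k, k ≠ i → k ≠ j → ∀ l, B k l = 0) (h2 : ∀ k, k ≠ i → k ≠ j → ∀ l, B l k = 0) :
    (A * B).trace = A i i * B i i + A j j * B j j + (A i j * B j i + A j i * B i j) := by
  have e : ∀ k, (A * B) k k = A k i * B i k + A k j * B j k := by
    intro k
    rw [Matrix.mul_apply, Finset.sum_eq_add i j hij]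
    · intro c _ hc
      rw [h1 c hc.1 hc.2, mul_zero]
    · intro h
      exact absurd (Finset.mem_univ i) h
    · intro h
      exact absurd (Finset.mem_univ j) h
  have e2 : (A * B).trace = (A * B) i i + (A * B) j j := by
    rw [Matrix.trace, Finset.sum_eq_add i j hij]
    · rfl
    · intro c _ hc
      rw [Matrix.diag_apply, e, h2 c hc.1 hc.2, h2 c hc.1 hc.2]
      ring
    · intro h
      exact absurd (Finset.mem_univ i) h
    · intro h
      exact absurd (Finset.mem_univ j) h
  rw [e2, e, e]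
  ring

end gen

/-- the unitary group is transitive on unit vectors with `x ⬝ y ≠ 1`: a reflection -/
lemma exists_refl {K : Type u} [Field K] [StarRing K] {n : ℕ} {x y : Fin n → K}
    (hx : star x ⬝ᵥ x = 1) (hy : star y ⬝ᵥ y = 1) (hxy : star x ⬝ᵥ y ≠ 1) :
    ∃ g : GU K n, g.1 *ᵥ y = x := by
  set a : K := 1 - star x ⬝ᵥ y with ha
  have ha0 : a ≠ 0 := sub_ne_zero.2 (Ne.symm hxy)
  have hsa : star a = 1 - star y ⬝ᵥ x := by rw [ha, star_sub, star_one, star_dot]
  have hsa0 : star a ≠ 0 := by rwa [Ne, star_eq_zero]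
  set w : Fin n → K := x - y with hw
  have hww : star w ⬝ᵥ w = a + star a := by
    rw [hw, star_sub, sub_dotProduct, dotProduct_sub, dotProduct_sub, hx, hy, hsa, ha]
    ring
  have hwy : star w ⬝ᵥ y = - a := by
    rw [hw, star_sub, sub_dotProduct, hy, ha]
    ring
  have hst : star (vecMulVec w (star w)) = vecMulVec w (star w) := by
    rw [star_eq_conjTranspose, conjTranspose_vecMulVec, star_star]
  have hsq : vecMulVec w (star w) * vecMulVec w (star w) =
      (a + star a) • vecMulVec w (star w) := by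
    rw [vecMulVec_mul_vecMulVec, hww, vecMulVec_smul]
  clear_value w
  refine ⟨⟨1 - a⁻¹ • vecMulVec w (star w), ?_⟩, ?_⟩
  · rw [Matrix.mem_unitaryGroup_iff, star_sub, star_one, star_smul, hst, sub_mul, mul_sub, mul_sub,
      one_mul, mul_one, one_mul, smul_mul_smul_comm, hsq, smul_smul]
    have hc : a⁻¹ * star (a⁻¹) * (a + star a) = a⁻¹ + star (a⁻¹) := by
      rw [star_inv₀]
      field_simp
      ring
    rw [hc, add_smul]
    abel
  · show (1 - a⁻¹ • vecMulVec w (star w)) *ᵥ y = x
    rw [sub_mulVec, one_mulVec, smul_mulVec, vecMulVec_mulVec, hwy]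
    simp only [op_smul_eq_smul, smul_smul]
    rw [mul_neg, inv_mul_cancel₀ ha0, hw]
    simp

end Vale.Agent.P240.R2.H744
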