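import Vale.Agent.P240.R2.H744.Wig2

/-!
P240, module AUT-SU, part W: maps `f` of the set of nondegenerate points of `K ^ n`, `n ≥ 3`, with
`tr (f P * f Q) = κ (tr (P * Q))` for all `P`, `Q` and one function `κ`, are semilinear. `κ` is additive
(Gleason) and multiplicative, hence a field automorphism; then Wigner's theorem `wigner_id`.
-/

set_option autoImplicit false

namespace Vale.Agent.P240.R2.H744

open Finset Matrix
open Vale.Agent.P240.R2.AS
open scoped Classical

universe u

section subfield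

variable (K : Type u) [Field K] [StarRing K]

/-- the field of the elements fixed by `star` -/
def fixF : Subfield K where
  carrier := {x | star x = x}
  mul_mem' := by
    intro a b ha hb
    simp only [Set.mem_ofPred_eq] at ha hb ⊢
    rw [star_mul, ha, hb, mul_comm]
  one_mem' := star_one K
  add_mem' := by
    intro a b ha hb
    simp only [Set.mem_ofPred_eq] at ha hb ⊢
    rw [star_add, ha, hb]
  zero_mem' := star_zero K
  neg_mem' := by
    intro a ha
    simp only [Set.mem_ofPred_eq] at ha ⊢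
    rw [star_neg, ha]
  inv_mem' := by
    intro a ha
    simp only [Set.mem_ofPred_eq] at ha ⊢
    rw [star_inv₀, ha]

lemma mem_fixF {x : K} : x ∈ fixF K ↔ star x = x := Iff.rfl

end subfield

section main

variable {K : Type u} [Field K] [Fintype K] [StarRing K] {q n : ℕ}

/-- the letter of a column of a unitary matrix -/
def col (g : GU K n) (i : Fin n) : Ln K n :=
  ln (fun k => g.1 k i) (by rw [H715.dot_col, Matrix.one_apply_eq])

omit [Fintype K] in
lemma col_mul (g : GU K n) {i j : Fin n} (hij : i ≠ j) : (col g i).1 * (col g j).1 = 0 := by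
  show vecMulVec _ _ * vecMulVec _ _ = 0
  rw [vecMulVec_mul_vecMulVec, H715.dot_col, Matrix.one_apply_ne hij]
  simp

lemma trace_fix (P Q : Ln K n) : star ((P.1 * Q.1).trace) = (P.1 * Q.1).trace := by
  rw [← Matrix.trace_conjTranspose, Matrix.conjTranspose_mul, H472.ln_star, H472.ln_star,
    Matrix.trace_mul_comm]

/-- the image of a letter under a field automorphism commuting with `star` -/
def mapLn (σ : K ≃+* K) (hσ : ∀ a, σ (star a) = star (σ a)) (P : Ln K n) : Ln K n :=
  ⟨P.1.map σ, by
    obtain ⟨x, hx, h⟩ := P.2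
    refine ⟨fun i => σ (x i), ?_, ?_⟩
    · have := congrArg σ hx
      rw [map_one, dotProduct, map_sum] at this
      rw [dotProduct, ← this]
      refine Finset.sum_congr rfl fun i _ => ?_
      rw [map_mul, Pi.star_apply, Pi.star_apply, hσ]
    · rw [h]
      ext i j
      rw [Matrix.map_apply, vecMulVec_apply, vecMulVec_apply, map_mul, Pi.star_apply,
        Pi.star_apply, hσ]⟩

theorem wigner (hq : 3 ≤ q) (hK : Nat.card K = q ^ 2) (hs : ∀ x : K, star x = x ^ q)
    (hn : 3 ≤ n) (f : Ln K n → Ln K n) (κ : K → K)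
    (hf : ∀ P Q : Ln K n, ((f P).1 * (f Q).1).trace = κ (P.1 * Q.1).trace)
    (hE : ∀ i, (f (E i)).1 = Matrix.single i i 1) :
    ∃ (σ : K ≃+* K) (c : Fin n → K), (∀ a, σ (star a) = star (σ a)) ∧
      (∀ i, c i * star (c i) = 1) ∧
      ∀ P : Ln K n, (f P).1 = Matrix.diagonal c * P.1.map σ * star (Matrix.diagonal c) := by
  obtain ⟨m, rfl⟩ : ∃ m, n = m + 3 := ⟨n - 3, by omega⟩
  have v0 : ((0 : Fin (m + 3)) : ℕ) = 0 := rfl
  have v1 : ((1 : Fin (m + 3)) : ℕ) = 1 := Fin.val_one (m + 1)
  have v2 : ((2 : Fin (m + 3)) : ℕ) = 2 := Fin.val_two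
  have h01 : (0 : Fin (m + 3)) ≠ 1 := by
    intro h
    have := congrArg Fin.val h
    omega
  have h02 : (0 : Fin (m + 3)) ≠ 2 := by
    intro h
    have := congrArg Fin.val h
    omega
  have h12 : (1 : Fin (m + 3)) ≠ 2 := by
    intro h
    have := congrArg Fin.val h
    omega
  have hκ0 : κ 0 = 0 := by
    have e0 : (Matrix.single (0 : Fin (m + 3)) (0 : Fin (m + 3)) (1 : K) *
        Matrix.single (1 : Fin (m + 3)) (1 : Fin (m + 3)) (1 : K)).trace = 0 := by
      rw [trace_E, Matrix.single_apply, if_neg]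
      exact fun h => h01 h.1
    have := hf (E 0) (E 1)
    rw [hE, hE, E_val, E_val, e0] at this
    exact this.symm
  have hκ1 : κ 1 = 1 := by
    have := hf (E 0) (E 0)
    rw [trace_self, trace_self] at this
    exact this.symm
  have hdiag : ∀ (P : Ln K (m + 3)) (i : Fin (m + 3)), (f P).1 i i = κ (P.1 i i) := by
    intro P i
    have := hf P (E i)
    rwa [hE, E_val, trace_E, trace_E] at this
  -- frames
  have hframe : ∀ g : GU K (m + 3), ∑ i, κ ((col g i).1 0 0) = 1 := by
    intro g
    have ho : Orth (List.ofFn (fun i => f (col g i))) := by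
      refine List.pairwise_ofFn.2 ?_
      intro i j hij
      apply mul_eq_zero_of_trace
      rw [hf, col_mul g hij.ne, Matrix.trace_zero, hκ0]
    have h1 := H472.sm_eq_one (List.length_ofFn) ho
    have h2 : sm (List.ofFn (fun i => f (col g i))) = ∑ i, (f (col g i)).1 := by
      rw [sm, List.map_ofFn, List.sum_ofFn]
      rfl
    rw [h2] at h1
    have h3 := congrFun (congrFun h1 0) 0
    rw [Matrix.sum_apply, Matrix.one_apply_eq] at h3
    exact (Finset.sum_congr rfl fun i _ => (hdiag _ _).symm).trans h3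
  obtain ⟨s, hs1, hs2⟩ := exists_phase (by omega : 2 ≤ q) hK hs
  have hvec : ∀ x : Fin (m + 3) → K, star x ⬝ᵥ x = 1 → ∑ i, κ (x i * star (x i)) = 1 := by
    intro x hx
    obtain ⟨c, hc1, hc2⟩ : ∃ c : K, c * star c = 1 ∧ star (x 0) * c ≠ 1 := by
      by_cases h : star (x 0) = 1
      · refine ⟨s, hs1, ?_⟩
        rw [h, one_mul]
        rintro rfl
        exact hs2 (star_one K)
      · exact ⟨1, by rw [star_one, mul_one], by rwa [mul_one]⟩
    obtain ⟨g, hg⟩ := exists_refl (x := x) (y := Pi.single 0 c) hx (by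
      simp
      rw [mul_comm, hc1]) (by
      simpa using hc2)
    have hcol : ∀ k, g.1 k 0 * c = x k := by
      intro k
      have := congrFun hg k
      simpa using this
    have h1 := hframe (star g)
    rw [← h1]
    refine Finset.sum_congr rfl fun i _ => ?_
    congr 1
    show _ = (star g.1) 0 i * star ((star g.1) 0 i)
    rw [Matrix.star_apply, star_star, ← hcol, star_mul]
    calc g.1 i 0 * c * (star c * star (g.1 i 0)) = (c * star c) * (star (g.1 i 0) * g.1 i 0) := by
          ring
      _ = _ := by rw [hc1, one_mul]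
  -- additivity
  have h3 : ∀ a b c : K, a * star a + b * star b + c * star c = 1 →
      κ (a * star a) + κ (b * star b) + κ (c * star c) = 1 := by
    intro a b c habc
    have h := hvec (v3 0 1 2 a b c) (by rw [v3_dot h01 h02 h12, habc])
    rw [sum_three h01 h02 h12, v3_i h01 h02, v3_j h01 h12, v3_k h02 h12] at h
    · exact h
    · intro l e1 e2 e3
      rw [v3_ne e1 e2 e3, zero_mul, hκ0]
  have hsum : ∀ s t r : K, star s = s → star t = t → star r = r → s + t + r = 1 →
      κ s + κ t + κ r = 1 := by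
    intro s t r e1 e2 e3 e4
    obtain ⟨a, ha⟩ := exists_norm' hK hs e1
    obtain ⟨b, hb⟩ := exists_norm' hK hs e2
    obtain ⟨c, hc⟩ := exists_norm' hK hs e3
    have := h3 a b c (by rw [ha, hb, hc, e4])
    rwa [ha, hb, hc] at this
  have hadd : ∀ s t : K, star s = s → star t = t → κ (s + t) = κ s + κ t := by
    intro s t e1 e2
    have a1 := hsum s t (1 - (s + t)) e1 e2 (by rw [star_sub, star_one, star_add, e1, e2])
      (by ring)
    have a2 := hsum (s + t) 0 (1 - (s + t)) (by rw [star_add, e1, e2]) (star_zero K)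
      (by rw [star_sub, star_one, star_add, e1, e2]) (by ring)
    rw [hκ0, add_zero] at a2
    exact add_right_cancel (a2.trans a1.symm)
  have hfixκ : ∀ t : K, star t = t → star (κ t) = κ t := by
    intro t ht
    obtain ⟨a, ha⟩ := exists_norm' hK hs ht
    obtain ⟨b, hb⟩ := exists_norm' (c := 1 - t) hK hs (by rw [star_sub, star_one, ht])
    have hu : star (v3 (0 : Fin (m + 3)) 1 2 a b 0) ⬝ᵥ v3 0 1 2 a b 0 = 1 := by
      rw [v3_dot h01 h02 h12, ha, hb, zero_mul]
      ring
    have h := hdiag (ln _ hu) 0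
    rw [ln_apply, v3_i h01 h02, ha] at h
    rw [← h, Ln_star]
  -- multiplicativity
  have hmul : ∀ s t : K, star s = s → star t = t → κ (s * t) = κ s * κ t := by
    intro s t e1 e2
    obtain ⟨a, ha⟩ := exists_norm' hK hs e1
    obtain ⟨b, hb⟩ := exists_norm' (c := 1 - s) hK hs (by rw [star_sub, star_one, e1])
    obtain ⟨c, hc⟩ := exists_norm' hK hs e2
    obtain ⟨d, hd⟩ := exists_norm' (c := 1 - t) hK hs (by rw [star_sub, star_one, e2])
    have hu : star (v3 (0 : Fin (m + 3)) 1 2 a b 0) ⬝ᵥ v3 0 1 2 a b 0 = 1 := by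
      rw [v3_dot h01 h02 h12, ha, hb, zero_mul]
      ring
    have hv : star (v3 (0 : Fin (m + 3)) 1 2 c 0 d) ⬝ᵥ v3 0 1 2 c 0 d = 1 := by
      rw [v3_dot h01 h02 h12, hc, hd, zero_mul]
      ring
    have hP2 : (ln _ hu).1 2 2 = 0 := by rw [ln_apply, v3_k h02 h12, zero_mul]
    have hfP2 : (f (ln _ hu)).1 2 2 = 0 := by rw [hdiag, hP2, hκ0]
    have hQ : ∀ k, k ≠ 0 → k ≠ 2 → (ln _ hv).1 k k = 0 := by
      intro k k0 k2
      rw [ln_apply]
      by_cases k1 : k = 1
      · subst k1
        rw [v3_j h01 h12, zero_mul]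
      · rw [v3_ne k0 k1 k2, zero_mul]
    have hfQ : ∀ k, k ≠ 0 → k ≠ 2 → (f (ln _ hv)).1 k k = 0 := by
      intro k k0 k2
      rw [hdiag, hQ k k0 k2, hκ0]
    have h := hf (ln _ hu) (ln _ hv)
    rw [trace_two _ _ h02 (fun k h1 h2 l => Ln_zero _ (hfQ k h1 h2) l)
      (fun k h1 h2 l => Ln_zero' _ (hfQ k h1 h2) l),
      trace_two _ _ h02 (fun k h1 h2 l => Ln_zero _ (hQ k h1 h2) l)
      (fun k h1 h2 l => Ln_zero' _ (hQ k h1 h2) l), hfP2, hP2, Ln_zero _ hfP2, Ln_zero' _ hfP2,
      Ln_zero _ hP2, Ln_zero' _ hP2, hdiag, hdiag, ln_apply, ln_apply, v3_i h01 h02, v3_i h01 h02,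
      ha, hc] at h
    simp only [zero_mul, add_zero] at h
    exact h.symm
  -- the field automorphism
  let κF : fixF K →+* fixF K :=
    { toFun := fun t => ⟨κ t, hfixκ t t.2⟩
      map_one' := Subtype.ext hκ1
      map_mul' := fun s t => Subtype.ext (hmul s t s.2 t.2)
      map_zero' := Subtype.ext hκ0
      map_add' := fun s t => Subtype.ext (hadd s t s.2 t.2) }
  obtain ⟨σ, hσ⟩ := exists_extension (fixF K) κF
  have hσs : ∀ a, σ (star a) = star (σ a) := by
    intro a
    rw [hs, hs, map_pow]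
  have hσs' : ∀ a, σ.symm (star a) = star (σ.symm a) := by
    intro a
    rw [hs, hs, map_pow]
  obtain ⟨b, d, hd, hfin⟩ := wigner_id hq hK hs (by omega) (fun P => mapLn σ.symm hσs' (f P))
    (by
      intro P Q
      have e1 : ((mapLn σ.symm hσs' (f P)).1 * (mapLn σ.symm hσs' (f Q)).1).trace =
          σ.symm ((f P).1 * (f Q).1).trace := by
        show ((f P).1.map σ.symm * (f Q).1.map σ.symm).trace = _
        rw [← Matrix.map_mul, Matrix.trace, Matrix.trace, map_sum]
        rfl
      have e2 : σ ((P.1 * Q.1).trace) = κ ((P.1 * Q.1).trace) :=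
        hσ ⟨(P.1 * Q.1).trace, trace_fix P Q⟩
      rw [e1, hf, ← e2, RingEquiv.symm_apply_apply]) (by
      intro i
      show (f (E i)).1.map σ.symm = _
      rw [hE]
      ext a b
      simp [Matrix.single_apply, apply_ite])
  refine ⟨(sg b).trans σ, fun i => σ (d i), ?_, ?_, ?_⟩
  · intro a
    rw [RingEquiv.trans_apply, RingEquiv.trans_apply, sg_star, hσs]
  · intro i
    rw [← hσs, ← map_mul, hd, map_one]
  · intro P
    ext i j
    have h1 := hfin P i j
    have h2 : (f P).1 i j = σ (d i * star (d j) * sg b (P.1 i j)) := by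
      rw [← h1]
      show _ = σ (σ.symm ((f P).1 i j))
      rw [RingEquiv.apply_symm_apply]
    rw [h2, map_mul, map_mul, hσs, Matrix.star_eq_conjTranspose, Matrix.diagonal_conjTranspose,
      Matrix.mul_diagonal, Matrix.diagonal_mul, Matrix.map_apply, RingEquiv.trans_apply,
      Pi.star_apply]
    ring

end main

end Vale.Agent.P240.R2.H744
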