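import Mathlib

/-!
P240 (helper744): the algebra of `StmtON` (`H687.Odd`): if for all vectors `v` of a spanning family
the element `x` commutes with its conjugates under two transvections `1 + s v vᵀ J`, then
`x ^ 2 = 1`.
-/

set_option autoImplicit false
set_option linter.all false

namespace Vale.Agent.P240.R2.H744.OddAlg

open Matrix

variable {ι K : Type*} [Fintype ι] [DecidableEq ι] [Field K]

/-- `v vᵀ J` -/
def Pv (J : Matrix ι ι K) (v : ι → K) : Matrix ι ι K := vecMulVec v v * J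

lemma Pv_eq (J : Matrix ι ι K) (v : ι → K) : Pv J v = vecMulVec v (v ᵥ* J) :=
  vecMulVec_mul _ _ _

lemma Pv_mul_mul (J x : Matrix ι ι K) (v : ι → K) :
    Pv J v * x * Pv J v = (v ⬝ᵥ (J * x) *ᵥ v) • Pv J v := by
  rw [Pv_eq, vecMulVec_mul, vecMulVec_mul_vecMulVec, vecMul_vecMul, ← dotProduct_mulVec,
    vecMulVec_smul]

/-- the form is alternating: `vᵀ J v = 0` -/
def Alt (J : Matrix ι ι K) : Prop := ∀ v : ι → K, v ⬝ᵥ J *ᵥ v = 0

lemma Pv_sq {J : Matrix ι ι K} (hJ : Alt J) (v : ι → K) : Pv J v * Pv J v = 0 := by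
  have h := Pv_mul_mul J 1 v
  rw [mul_one, mul_one, hJ v, zero_smul] at h
  exact h

/-- the quadratic relation -/
lemma quad {P x : Matrix ι ι K} {s b : K} (hs : s ≠ 0) (hPP : P * P = 0)
    (hb : P * x * P = b • P)
    (hc : (1 + s • P) * x * (1 - s • P) * x = x * ((1 + s • P) * x * (1 - s • P))) :
    P * x * x - x * P * x - x * P * x + x * x * P = (s * b) • (P * x - x * P) := by
  have h1 : (1 + s • P) * x * (1 - s • P) * x - x * ((1 + s • P) * x * (1 - s • P)) =
      s • (P * x * x - x * P * x - x * P * x + x * x * P) -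
        (s * s) • ((P * x * P) * x - x * (P * x * P)) := by
    simp only [mul_add, add_mul, mul_sub, sub_mul, one_mul, mul_one, smul_mul_assoc,
      mul_smul_comm, smul_add, smul_sub, smul_smul, mul_assoc]
    abel
  rw [hc, sub_self, hb] at h1
  have h2 : s • (P * x * x - x * P * x - x * P * x + x * x * P) =
      s • ((s * b) • (P * x - x * P)) := by
    rw [eq_comm, sub_eq_zero] at h1
    rw [h1]
    simp only [smul_mul_assoc, mul_smul_comm, smul_sub, smul_smul]
    simp only [mul_assoc]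
  exact smul_right_injective _ hs h2

theorem b_zero {J x : Matrix ι ι K} (hJ : Alt J) (v : ι → K)
    (hc : ∃ s s' : K, s ≠ s' ∧ s ≠ 0 ∧ s' ≠ 0 ∧
      (1 + s • Pv J v) * x * (1 - s • Pv J v) * x =
        x * ((1 + s • Pv J v) * x * (1 - s • Pv J v)) ∧
      (1 + s' • Pv J v) * x * (1 - s' • Pv J v) * x =
        x * ((1 + s' • Pv J v) * x * (1 - s' • Pv J v))) :
    v ⬝ᵥ (J * x) *ᵥ v = 0 := by
  obtain ⟨s, s', hss, hs, hs', h1, h2⟩ := hc
  by_contra hb
  set b := v ⬝ᵥ (J * x) *ᵥ v with hbdef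
  set P := Pv J v with hP
  have hPP : P * P = 0 := Pv_sq hJ v
  have hPx : P * x * P = b • P := Pv_mul_mul J x v
  have e1 := quad hs hPP hPx h1
  have e2 := quad hs' hPP hPx h2
  have e3 : ((s - s') * b) • (P * x - x * P) = 0 := by
    rw [sub_mul, sub_smul, ← e1, ← e2, sub_self]
  have e4 : P * x - x * P = 0 := by
    rcases smul_eq_zero.1 e3 with h | h
    · exact absurd h (mul_ne_zero (sub_ne_zero.2 hss) hb)
    · exact h
  have e5 : P * x * P = 0 := by
    rw [sub_eq_zero.1 e4, mul_assoc, hPP, mul_zero]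
  rw [hPx] at e5
  have e6 : P = 0 := (smul_eq_zero.1 e5).resolve_left hb
  have e7 : P *ᵥ (x *ᵥ v) = b • v := by
    rw [hP, Pv_eq, vecMulVec_mulVec, ← dotProduct_mulVec, mulVec_mulVec, op_smul_eq_smul]
  rw [e6, zero_mulVec] at e7
  have e8 : v = 0 := (smul_eq_zero.1 e7.symm).resolve_left hb
  apply hb
  rw [hbdef, e8, zero_dotProduct]

/-- the algebra -/
theorem alg {J x f : Matrix ι ι K} (hJ : J * J = -1) (hJt : Jᵀ = -J) (hA : Alt J)
    (hx : xᵀ * J * x = J) (hf : f * f = f) (hfa : -(J * fᵀ * J) = f) (h1 : x * (1 - f) = 1 - f)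
    (h2 : (1 - f) * x = 1 - f) (V0 : Set (ι → K))
    (hadd : ∀ v ∈ V0, ∀ w ∈ V0, v + w ∈ V0)
    (hspan : ∀ l : ι → K, (∀ v ∈ V0, l ⬝ᵥ v = 0) → l = 0)
    (hV : ∀ v ∈ V0, f *ᵥ v ∈ V0)
    (hc : ∀ v ∈ V0, f *ᵥ v = v → ∃ s s' : K, s ≠ s' ∧ s ≠ 0 ∧ s' ≠ 0 ∧
      (1 + s • Pv J v) * x * (1 - s • Pv J v) * x =
        x * ((1 + s • Pv J v) * x * (1 - s • Pv J v)) ∧
      (1 + s' • Pv J v) * x * (1 - s' • Pv J v) * x =
        x * ((1 + s' • Pv J v) * x * (1 - s' • Pv J v))) :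
    x * x = 1 := by
  have hb : ∀ v ∈ V0, (f *ᵥ v) ⬝ᵥ (J * x) *ᵥ (f *ᵥ v) = 0 := by
    intro v hv
    refine b_zero hA _ (hc _ (hV v hv) ?_)
    rw [mulVec_mulVec, hf]
  -- polarisation
  have hp : ∀ v ∈ V0, ∀ w ∈ V0, v ⬝ᵥ (fᵀ * (J * x - xᵀ * J) * f) *ᵥ w = 0 := by
    intro v hv w hw
    have e1 := hb _ (hadd v hv w hw)
    rw [mulVec_add, mulVec_add, add_dotProduct, dotProduct_add, dotProduct_add, hb v hv,
      hb w hw, zero_add, add_zero] at e1
    have e2 : (f *ᵥ w) ⬝ᵥ (J * x) *ᵥ (f *ᵥ v) = -((f *ᵥ v) ⬝ᵥ (xᵀ * J) *ᵥ (f *ᵥ w)) := by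
      rw [dotProduct_comm, ← vecMul_transpose, ← dotProduct_mulVec, transpose_mul, hJt,
        mul_neg, neg_mulVec, dotProduct_neg]
    rw [e2] at e1
    calc v ⬝ᵥ (fᵀ * (J * x - xᵀ * J) * f) *ᵥ w
        = (f *ᵥ v) ⬝ᵥ (J * x - xᵀ * J) *ᵥ (f *ᵥ w) := by
          rw [← mulVec_mulVec, ← mulVec_mulVec, dotProduct_mulVec v fᵀ, vecMul_transpose]
      _ = 0 := by
          rw [sub_mulVec, dotProduct_sub, sub_eq_add_neg]
          exact e1
  -- spanning, twice
  have hQ : fᵀ * (J * x - xᵀ * J) * f = 0 := by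
    set Q := fᵀ * (J * x - xᵀ * J) * f
    have a1 : ∀ w ∈ V0, Q *ᵥ w = 0 := by
      intro w hw
      apply hspan
      intro v hv
      rw [dotProduct_comm]
      exact hp v hv w hw
    have a2 : ∀ i, Q i = 0 := by
      intro i
      apply hspan
      intro w hw
      exact congrFun (a1 w hw) i
    ext i j
    exact congrFun (a2 i) j
  -- `fᵀ J = J f`
  have hfJ : fᵀ * J = J * f := by
    have : J * (-(J * fᵀ * J)) = fᵀ * J := by
      rw [mul_neg, ← mul_assoc, ← mul_assoc, hJ]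
      simp
    rw [← this, hfa]
  have hxf : x * f = f * x := by
    have e1 : x - x * f = 1 - f := by rw [← h1, mul_sub, mul_one]
    have e2 : x - f * x = 1 - f := by rw [← h2, sub_mul, one_mul]
    have := e1.trans e2.symm
    exact sub_right_injective this
  -- `J (x - x⁻¹) f = 0` in the form `(xᵀ J x) x ...`
  have hQ2 : J * (x * x - 1) * f = 0 := by
    have e1 : (fᵀ * (J * x - xᵀ * J) * f) * x = J * (x * x - 1) * f := by
      calc (fᵀ * (J * x - xᵀ * J) * f) * x = fᵀ * (J * x - xᵀ * J) * x * f := by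
            rw [mul_assoc, mul_assoc _ x f, hxf]
        _ = fᵀ * J * (x * x - 1) * f := by
            congr 1
            rw [mul_assoc fᵀ, mul_assoc fᵀ J, sub_mul, hx, mul_sub J, mul_one, mul_assoc J x x]
        _ = J * (x * x - 1) * f := by
            rw [hfJ]
            have e3 : f * (x * x - 1) * f = (x * x - 1) * f := by
              have : f * (x * x - 1) = (x * x - 1) * f := by
                rw [mul_sub, sub_mul, mul_one, one_mul, ← mul_assoc, ← hxf, mul_assoc, ← hxf,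
                  ← mul_assoc]
              rw [this, mul_assoc, hf]
            rw [mul_assoc J f, mul_assoc J, e3, ← mul_assoc]
    rw [hQ, zero_mul] at e1
    exact e1.symm
  have hQ3 : (x * x - 1) * f = 0 := by
    have e1 : J * (J * ((x * x - 1) * f)) = 0 := by
      rw [← mul_assoc J (x * x - 1) f, hQ2, mul_zero]
    rw [← mul_assoc, hJ, neg_mul, one_mul, neg_eq_zero] at e1
    exact e1
  have hQ4 : (x * x - 1) * (1 - f) = 0 := by
    rw [sub_mul, one_mul, mul_assoc, h1, h1, sub_self]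
  have : x * x - 1 = (x * x - 1) * (1 - f) + (x * x - 1) * f := by
    rw [← mul_add, sub_add_cancel, mul_one]
  rw [hQ3, hQ4, add_zero] at this
  exact sub_eq_zero.1 this

end Vale.Agent.P240.R2.H744.OddAlg
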