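import Vale.Agent.P240.R2.H472.Nrm

/-!
P240, module AUT-SU, part W: field lemmas.
-/

set_option autoImplicit false

namespace Vale.Agent.P240.R2.H744

open Finset
open scoped Classical

universe u

/-- the two-dimensional Wigner theorem: a norm isometry `w1 ↦ v1, w2 ↦ v2` of `K` -/
theorem wigner_two {K : Type u} [Field K] [StarRing K] {w1 w2 v1 v2 : K}
    (hw : w1 * star w2 ≠ star w1 * w2)
    (h1 : v1 * star v1 = w1 * star w1) (h2 : v2 * star v2 = w2 * star w2)
    (h12 : v1 * star v2 + star v1 * v2 = w1 * star w2 + star w1 * w2) :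
    ∃ (b : Bool) (c : K), c * star c = 1 ∧ ∀ z z' : K,
      z' * star v1 + star z' * v1 = z * star w1 + star z * w1 →
      z' * star v2 + star z' * v2 = z * star w2 + star z * w2 →
      z' = c * (if b then star z else z) := by
  have hw1 : w1 ≠ 0 := by
    rintro rfl
    simp at hw
  have hw2 : w2 ≠ 0 := by
    rintro rfl
    simp at hw
  have hsw1 : star w1 ≠ 0 := by rwa [Ne, star_eq_zero]
  have hsw2 : star w2 ≠ 0 := by rwa [Ne, star_eq_zero]
  have hv1 : v1 ≠ 0 := by
    rintro rfl
    rw [zero_mul] at h1
    rcases mul_eq_zero.1 h1.symm with h | h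
    · exact hw1 h
    · exact hsw1 h
  have hsv1 : star v1 ≠ 0 := by rwa [Ne, star_eq_zero]
  -- the key factorisation
  have key : (v2 * star v1 - star w1 * w2) * (v2 * star v1 - w1 * star w2) = 0 := by
    have e : (v2 * star v1 - star w1 * w2) * (v2 * star v1 - w1 * star w2) =
      v2 * star v1 * (star v1 * v2 - (star w1 * w2 + w1 * star w2)) + (w1 * star w1) * (w2 * star w2) := by
      ring
    rw [e, ← h1, ← h2]
    have e2 : star v1 * v2 - (star w1 * w2 + w1 * star w2) = - (v1 * star v2) := by
      rw [add_comm (star w1 * w2), ← h12]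
      ring
    rw [e2]
    ring
  -- uniqueness
  have uniq : ∀ d : K, d * star v1 + star d * v1 = 0 → d * star v2 + star d * v2 = 0 →
      (v1 * star v2 ≠ star v1 * v2) → d = 0 := by
    intro d e1 e2 hne
    have e3 : d * (star v1 * v2 - v1 * star v2) = 0 := by
      have : d * (star v1 * v2 - v1 * star v2) =
        (d * star v1 + star d * v1) * v2 - (d * star v2 + star d * v2) * v1 := by ring
      rw [this, e1, e2]
      ring
    rcases mul_eq_zero.1 e3 with h | h
    · exact h
    · exact absurd (sub_eq_zero.1 h).symm hne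
  rcases mul_eq_zero.1 key with hA | hB
  · -- `v_i = c w_i`
    have hA' : v2 * star v1 = star w1 * w2 := sub_eq_zero.1 hA
    have hA2 : star v2 * v1 = w1 * star w2 := by
      have := congrArg star hA'
      simpa [mul_comm] using this
    set c : K := v1 / w1 with hc
    have hc1 : v1 = c * w1 := by rw [hc, div_mul_cancel₀ _ hw1]
    have hcn : c * star c = 1 := by
      rw [hc, star_div₀, div_mul_div_comm, h1, div_self]
      exact mul_ne_zero hw1 hsw1
    have hc0 : c ≠ 0 := by
      intro h
      rw [h, zero_mul] at hcn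
      exact zero_ne_one hcn
    have hc2 : v2 = c * w2 := by
      have e : star w1 * (star c * v2 - w2) = 0 := by
        rw [hc1, star_mul] at hA'
        have : star w1 * (star c * v2 - w2) = v2 * (star w1 * star c) - star w1 * w2 := by ring
        rw [this, hA', sub_self]
      rcases mul_eq_zero.1 e with h | h
      · exact absurd h hsw1
      · have h' : star c * v2 = w2 := sub_eq_zero.1 h
        rw [← h', ← mul_assoc, hcn, one_mul]
    refine ⟨false, c, hcn, ?_⟩
    intro z z' e1 e2
    have hne : v1 * star v2 ≠ star v1 * v2 := by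
      rw [mul_comm v1, hA2, mul_comm (star v1), hA']
      exact hw
    have hk : ∀ w : K, (z' - c * z) * star (c * w) + star (z' - c * z) * (c * w) =
        (z' * star (c * w) + star z' * (c * w)) - (c * star c) * (z * star w + star z * w) := by
      intro w
      rw [star_sub, star_mul, star_mul]
      ring
    have e3 := uniq (z' - c * z) (by
      conv_lhs => rw [hc1]
      rw [hk, ← hc1, e1, hcn]
      ring) (by
      conv_lhs => rw [hc2]
      rw [hk, ← hc2, e2, hcn]
      ring) hne
    simpa using sub_eq_zero.1 e3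
  · have hB' : v2 * star v1 = w1 * star w2 := sub_eq_zero.1 hB
    have hB2 : star v2 * v1 = star w1 * w2 := by
      have := congrArg star hB'
      simpa [mul_comm] using this
    set c : K := v1 / star w1 with hc
    have hc1 : v1 = c * star w1 := by rw [hc, div_mul_cancel₀ _ hsw1]
    have hcn : c * star c = 1 := by
      rw [hc, star_div₀, star_star, div_mul_div_comm, h1, mul_comm w1, div_self]
      exact mul_ne_zero hsw1 hw1
    have hc2 : v2 = c * star w2 := by
      have e : w1 * (star c * v2 - star w2) = 0 := by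
        rw [hc1, star_mul, star_star] at hB'
        have : w1 * (star c * v2 - star w2) = v2 * (w1 * star c) - w1 * star w2 := by ring
        rw [this, hB', sub_self]
      rcases mul_eq_zero.1 e with h | h
      · exact absurd h hw1
      · have h' : star c * v2 = star w2 := sub_eq_zero.1 h
        rw [← h', ← mul_assoc, hcn, one_mul]
    refine ⟨true, c, hcn, ?_⟩
    intro z z' e1 e2
    have hne : v1 * star v2 ≠ star v1 * v2 := by
      rw [mul_comm v1, hB2, mul_comm (star v1), hB']
      exact fun h => hw h.symm
    have hk : ∀ w : K, (z' - c * star z) * star (c * star w) + star (z' - c * star z) * (c * star w) =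
        (z' * star (c * star w) + star z' * (c * star w)) -
          (c * star c) * (z * star w + star z * w) := by
      intro w
      rw [star_sub, star_mul, star_mul, star_star, star_star]
      ring
    have e3 := uniq (z' - c * star z) (by
      conv_lhs => rw [hc1]
      rw [hk, ← hc1, e1, hcn]
      ring) (by
      conv_lhs => rw [hc2]
      rw [hk, ← hc2, e2, hcn]
      ring) hne
    simpa using sub_eq_zero.1 e3

section fin

variable {K : Type u} [Field K] [Fintype K] [StarRing K] {q : ℕ}

lemma exists_norm' (hK : Nat.card K = q ^ 2) (hs : ∀ x : K, star x = x ^ q) {c : K}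
    (hc : star c = c) : ∃ x : K, x * star x = c := by
  by_cases h0 : c = 0
  · exact ⟨0, by rw [h0, zero_mul]⟩
  · obtain ⟨x, hx⟩ := H472.exists_norm (by rwa [← Nat.card_eq_fintype_card]) hs h0 hc
    exact ⟨x, by rw [mul_comm, hx]⟩

/-- an element of norm one which is not fixed by `star` -/
lemma exists_phase (hq : 2 ≤ q) (hK : Nat.card K = q ^ 2) (hs : ∀ x : K, star x = x ^ q) :
    ∃ s : K, s * star s = 1 ∧ star s ≠ s := by
  by_contra hcon
  push Not at hcon
  have hsub : (Finset.univ.filter (fun x : K => star x * x = 1)) ⊆ {1, -1} := by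
    intro x hx
    have hx1 := (Finset.mem_filter.1 hx).2
    have hx2 := hcon x (by rw [mul_comm]; exact hx1)
    rw [hx2] at hx1
    have : (x - 1) * (x + 1) = 0 := by
      have : (x - 1) * (x + 1) = x * x - 1 := by ring
      rw [this, hx1, sub_self]
    rcases mul_eq_zero.1 this with h | h
    · simp [sub_eq_zero.1 h]
    · simp [eq_neg_of_add_eq_zero_left h]
  have h1 := Finset.card_le_card hsub
  rw [H472.card_norm_one (q := q) (by rwa [← Nat.card_eq_fintype_card]) hs] at h1
  have h2 := Finset.card_le_two (a := (1 : K)) (b := -1)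
  omega

/-- a proper norm different from `0, 1` -/
lemma exists_tau (hq : 3 ≤ q) (hK : Nat.card K = q ^ 2) (hs : ∀ x : K, star x = x ^ q) :
    ∃ a b : K, a * star a + b * star b = 1 ∧ a ≠ 0 ∧ b ≠ 0 := by
  -- a fixed element different from `0` and `1`
  obtain ⟨t, ht, h0, h1⟩ : ∃ t : K, star t = t ∧ t ≠ 0 ∧ t ≠ 1 := by
    obtain ⟨g, hg⟩ := IsCyclic.exists_generator (α := Kˣ)
    have ho : orderOf g = q ^ 2 - 1 := by
      rw [orderOf_eq_card_of_forall_mem_zpowers hg, Nat.card_units, hK]
    refine ⟨((g ^ (q + 1) : Kˣ) : K), ?_, Units.ne_zero _, ?_⟩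
    · rw [hs, ← Units.val_pow_eq_pow_val, ← pow_mul]
      congr 1
      have e : (q + 1) * q = (q + 1) + (q ^ 2 - 1) := by
        have : 1 ≤ q ^ 2 := Nat.one_le_pow _ _ (by omega)
        zify [this]
        ring
      rw [e, pow_add, ← ho, pow_orderOf_eq_one, mul_one]
    · intro h
      have h' : g ^ (q + 1) = 1 := Units.ext h
      have h2 := orderOf_dvd_of_pow_eq_one h'
      rw [ho] at h2
      have h3 := Nat.le_of_dvd (by omega) h2
      have h4 : q ^ 2 ≤ q + 2 := by omega
      nlinarith
  obtain ⟨a, ha⟩ := exists_norm' hK hs ht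
  obtain ⟨b, hb⟩ := exists_norm' (c := 1 - t) hK hs (by rw [star_sub, star_one, ht])
  refine ⟨a, b, by rw [ha, hb]; ring, ?_, ?_⟩
  · rintro rfl
    rw [zero_mul] at ha
    exact h0 ha.symm
  · rintro rfl
    rw [zero_mul] at hb
    exact h1 (sub_eq_zero.1 hb.symm).symm

end fin

/-- automorphisms of a subfield of a finite field extend -/
lemma exists_extension {K : Type u} [Field K] [Finite K] (F : Subfield K) (κ : F →+* F) :
    ∃ σ : K ≃+* K, ∀ t : F, σ t = κ t := by
  obtain ⟨p, hp⟩ := CharP.exists K
  have : Fact p.Prime := ⟨CharP.char_is_prime K p⟩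
  have : CharP F p := (RingHom.charP_iff F.subtype F.subtype.injective p).2 hp
  let _ : Algebra (ZMod p) F := ZMod.algebra F p
  have hc : ∀ r : ZMod p, κ (algebraMap (ZMod p) F r) = algebraMap (ZMod p) F r := fun r =>
    RingHom.congr_fun (Subsingleton.elim (κ.comp (algebraMap (ZMod p) F)) (algebraMap (ZMod p) F)) r
  let κ' : F →ₐ[ZMod p] F := { κ with commutes' := hc }
  obtain ⟨k, hk⟩ := (FiniteField.bijective_frobeniusAlgHom_pow (ZMod p) F).2 κ'
  refine ⟨iterateFrobeniusEquiv K p k.1, fun t => ?_⟩
  have h1 : κ t = t ^ p ^ k.1 := by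
    have h2 : κ' t = κ t := rfl
    rw [← h2, ← hk]
    have h3 : ∀ m : ℕ, ((FiniteField.frobeniusAlgHom (ZMod p) F) ^ m) t = t ^ p ^ m := by
      intro m
      induction m with
      | zero => simp
      | succ m ih =>
        rw [pow_succ', AlgHom.mul_apply, ih, FiniteField.frobeniusAlgHom_apply, ZMod.card, ← pow_mul, pow_succ]
    exact h3 _
  rw [h1, iterateFrobeniusEquiv_def]
  simp

end Vale.Agent.P240.R2.H744
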