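import Vale.Agent.P240.R2.H744.Wig0
import Vale.Agent.P240.R2.H744.Wig1

/-!
P240, module AUT-SU, part W: Wigner's theorem, maps of the nondegenerate points of `K ^ n` preserving
`tr (P * Q)`.
-/

set_option autoImplicit false

namespace Vale.Agent.P240.R2.H744

open Finset Matrix
open Vale.Agent.P240.R2.AS
open scoped Classical

universe u

section vec

variable {K : Type u} [Field K] {n : ℕ}

/-- a vector with three coordinates -/
def v3 (i j k : Fin n) (a b c : K) : Fin n → K := Pi.single i a + Pi.single j b + Pi.single k c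

lemma v3_i {i j k : Fin n} (hij : i ≠ j) (hik : i ≠ k) (a b c : K) : v3 i j k a b c i = a := by
  simp [v3, hij, hik]

lemma v3_j {i j k : Fin n} (hij : i ≠ j) (hjk : j ≠ k) (a b c : K) : v3 i j k a b c j = b := by
  simp [v3, hij.symm, hjk]

lemma v3_k {i j k : Fin n} (hik : i ≠ k) (hjk : j ≠ k) (a b c : K) : v3 i j k a b c k = c := by
  simp [v3, hik.symm, hjk.symm]

lemma v3_ne {i j k l : Fin n} (hi : l ≠ i) (hj : l ≠ j) (hk : l ≠ k) (a b c : K) :
    v3 i j k a b c l = 0 := by
  simp [v3, hi, hj, hk]

lemma sum_three {M : Type*} [AddCommMonoid M] {i j k : Fin n} (hij : i ≠ j) (hik : i ≠ k)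
    (hjk : j ≠ k) (F : Fin n → M) (h : ∀ l, l ≠ i → l ≠ j → l ≠ k → F l = 0) :
    ∑ l, F l = F i + F j + F k := by
  rw [← Finset.sum_subset (Finset.subset_univ {i, j, k})]
  · rw [Finset.sum_insert (by simp [hij, hik]), Finset.sum_pair hjk, add_assoc]
  · intro l _ hl
    simp only [Finset.mem_insert, Finset.mem_singleton, not_or] at hl
    exact h l hl.1 hl.2.1 hl.2.2

lemma v3_dot [StarRing K] {i j k : Fin n} (hij : i ≠ j) (hik : i ≠ k) (hjk : j ≠ k) (a b c : K) :
    star (v3 i j k a b c) ⬝ᵥ v3 i j k a b c = a * star a + b * star b + c * star c := by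
  rw [dotProduct, sum_three hij hik hjk]
  · simp only [Pi.star_apply, v3_i hij hik, v3_j hij hjk, v3_k hik hjk]
    ring
  · intro l h1 h2 h3
    rw [v3_ne h1 h2 h3, mul_zero]

end vec

/-- `star` or the identity -/
def sg {K : Type u} [Field K] [StarRing K] (b : Bool) : K ≃+* K :=
  if b then starRingAut else RingEquiv.refl K

lemma sg_apply {K : Type u} [Field K] [StarRing K] (b : Bool) (x : K) :
    sg b x = if b then star x else x := by
  cases b
  · rfl
  · rfl

lemma sg_star {K : Type u} [Field K] [StarRing K] (b : Bool) (x : K) :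
    sg b (star x) = star (sg b x) := by
  rw [sg_apply, sg_apply]
  split_ifs <;> rfl

lemma sg_inj {K : Type u} [Field K] [StarRing K] {b b' : Bool} {s : K} (hs : star s ≠ s)
    (h : sg b s = sg b' s) : b = b' := by
  rw [sg_apply, sg_apply] at h
  cases b <;> cases b'
  · rfl
  · exact absurd h.symm hs
  · exact absurd h hs
  · rfl

section wig

variable {K : Type u} [Field K] [Fintype K] [StarRing K] {q n : ℕ}

/-- Wigner's theorem -/
theorem wigner_id (hq : 3 ≤ q) (hK : Nat.card K = q ^ 2) (hs : ∀ x : K, star x = x ^ q)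
    (hn : 3 ≤ n) (f : Ln K n → Ln K n)
    (hf : ∀ P Q : Ln K n, ((f P).1 * (f Q).1).trace = (P.1 * Q.1).trace)
    (hE : ∀ i, (f (E i)).1 = Matrix.single i i 1) :
    ∃ (b : Bool) (d : Fin n → K), (∀ i, d i * star (d i) = 1) ∧
      ∀ (P : Ln K n) (i j : Fin n), (f P).1 i j = d i * star (d j) * sg b (P.1 i j) := by
  have hdiag : ∀ (P : Ln K n) (i : Fin n), (f P).1 i i = P.1 i i := by
    intro P i
    have := hf P (E i)
    rwa [hE, E_val, trace_E, trace_E] at this
  obtain ⟨s, hs1, hs2⟩ := exists_phase (by omega : 2 ≤ q) hK hs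
  have hs0 : s ≠ 0 := by
    rintro rfl
    rw [zero_mul] at hs1
    exact zero_ne_one hs1
  -- the pairing
  have hpair : ∀ {i j : Fin n}, i ≠ j → ∀ P Q : Ln K n, (∀ k, k ≠ i → k ≠ j → Q.1 k k = 0) →
      (f P).1 i j * star ((f Q).1 i j) + star ((f P).1 i j) * (f Q).1 i j =
        P.1 i j * star (Q.1 i j) + star (P.1 i j) * Q.1 i j := by
    intro i j hij P Q hQ
    have h := hf P Q
    have hQ' : ∀ k, k ≠ i → k ≠ j → (f Q).1 k k = 0 := by
      intro k h1 h2
      rw [hdiag, hQ k h1 h2]
    rw [trace_two _ _ hij (fun k h1 h2 l => Ln_zero _ (hQ' k h1 h2) l)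
      (fun k h1 h2 l => Ln_zero' _ (hQ' k h1 h2) l),
      trace_two _ _ hij (fun k h1 h2 l => Ln_zero _ (hQ k h1 h2) l)
      (fun k h1 h2 l => Ln_zero' _ (hQ k h1 h2) l), hdiag, hdiag, hdiag, hdiag] at h
    rw [Ln_star, Ln_star, Ln_star, Ln_star]
    exact add_left_cancel h
  -- the two-dimensional statement
  have hex : ∀ i j : Fin n, ∃ (b : Bool) (c : K), i ≠ j → c * star c = 1 ∧
      ∀ P : Ln K n, (f P).1 i j = c * sg b (P.1 i j) := by
    intro i j
    by_cases hij : i = j
    · exact ⟨true, 0, fun h => absurd hij h⟩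
    obtain ⟨a, d, had, ha, hd⟩ := exists_tau hq hK hs
    -- a third index
    obtain ⟨k, hki, hkj⟩ : ∃ k : Fin n, k ≠ i ∧ k ≠ j := by
      have : ∃ k : Fin n, k ∉ ({i, j} : Finset (Fin n)) := by
        by_contra hcon
        push Not at hcon
        have h1 : (Finset.univ : Finset (Fin n)) ⊆ {i, j} := fun k _ => hcon k
        have h2 := Finset.card_le_card h1
        rw [Finset.card_univ, Fintype.card_fin] at h2
        have h3 := Finset.card_le_two (a := i) (b := j)
        omega
      obtain ⟨k, hk⟩ := this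
      simp only [Finset.mem_insert, Finset.mem_singleton, not_or] at hk
      exact ⟨k, hk.1, hk.2⟩
    have hu : ∀ t : K, t * star t = 1 →
        star (v3 i j k (t * a) d 0) ⬝ᵥ v3 i j k (t * a) d 0 = 1 := by
      intro t ht
      rw [v3_dot hij hki.symm hkj.symm, star_mul, zero_mul, add_zero]
      have : t * a * (star a * star t) = (t * star t) * (a * star a) := by ring
      rw [this, ht, one_mul, had]
    have hz : ∀ (t : K) (ht : t * star t = 1), ∀ l, l ≠ i → l ≠ j → (ln _ (hu t ht)).1 l l = 0 := by
      intro t ht l h1 h2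
      rw [ln_apply]
      by_cases hlk : l = k
      · subst hlk
        rw [v3_k hki.symm hkj.symm, zero_mul]
      · rw [v3_ne h1 h2 hlk, zero_mul]
    have he : ∀ (t : K) (ht : t * star t = 1), (ln _ (hu t ht)).1 i j = t * (a * star d) := by
      intro t ht
      rw [ln_apply, v3_i hij hki.symm, v3_j hij hkj.symm, mul_assoc]
    have h11 : (1 : K) * star 1 = 1 := by rw [star_one, mul_one]
    have hw0 : a * star d ≠ 0 := mul_ne_zero ha (by rwa [Ne, star_eq_zero])
    have hw0' : star (a * star d) ≠ 0 := by rwa [Ne, star_eq_zero]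
    have hnorm : ∀ P : Ln K n, (f P).1 i j * star ((f P).1 i j) = P.1 i j * star (P.1 i j) := by
      intro P
      rw [Ln_star, Ln_star, mul_comm, Ln_mul, mul_comm (P.1 i j), Ln_mul, hdiag, hdiag]
    obtain ⟨b, c, hc, hz2⟩ := wigner_two (w1 := (ln _ (hu 1 h11)).1 i j)
      (w2 := (ln _ (hu s hs1)).1 i j) (v1 := (f (ln _ (hu 1 h11))).1 i j)
      (v2 := (f (ln _ (hu s hs1))).1 i j) (by
        rw [he 1 h11, he s hs1, one_mul, star_mul s]
        intro hcon
        apply hs2
        have e1 : (a * star d) * star (a * star d) * (star s - s) = 0 := by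
          have : (a * star d) * star (a * star d) * (star s - s) =
            (a * star d) * (star (a * star d) * star s) - star (a * star d) * (s * (a * star d)) := by
            ring
          rw [this, hcon, sub_self]
        rcases mul_eq_zero.1 e1 with h | h
        · rcases mul_eq_zero.1 h with h | h
          · exact absurd h hw0
          · exact absurd h hw0'
        · exact sub_eq_zero.1 h) (hnorm _) (hnorm _) (hpair hij _ _ (hz s hs1))
    refine ⟨b, c, fun _ => ⟨hc, fun P => ?_⟩⟩
    rw [sg_apply]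
    exact hz2 _ _ (hpair hij P _ (hz 1 h11)) (hpair hij P _ (hz s hs1))
  choose B C hBC using hex
  have hC : ∀ {i j : Fin n}, i ≠ j → C i j * star (C i j) = 1 := fun h => (hBC _ _ h).1
  have hB : ∀ {i j : Fin n}, i ≠ j → ∀ P : Ln K n, (f P).1 i j = C i j * sg (B i j) (P.1 i j) :=
    fun h => (hBC _ _ h).2
  have hC0 : ∀ {i j : Fin n}, i ≠ j → C i j ≠ 0 := by
    intro i j hij h
    have := hC hij
    rw [h, zero_mul] at this
    exact zero_ne_one this
  -- test letters
  obtain ⟨r, hr⟩ := exists_norm' (c := (-1 : K)) hK hs (by rw [star_neg, star_one])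
  have hr0 : r ≠ 0 := by
    rintro rfl
    rw [zero_mul] at hr
    exact (neg_ne_zero.2 one_ne_zero) hr.symm
  have hu : ∀ {i j k : Fin n} (hij : i ≠ j) (hik : i ≠ k) (hjk : j ≠ k) (t : K),
      t * star t = 1 → star (v3 i j k t 1 r) ⬝ᵥ v3 i j k t 1 r = 1 := by
    intro i j k hij hik hjk t ht
    rw [v3_dot hij hik hjk, ht, hr, star_one]
    ring
  have h11 : (1 : K) * star 1 = 1 := by rw [star_one, mul_one]
  -- symmetry
  have hsymC : ∀ {i j : Fin n}, i ≠ j → C j i = star (C i j) ∧ B j i = B i j := by
    intro i j hij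
    obtain ⟨k, hki, hkj⟩ : ∃ k : Fin n, k ≠ i ∧ k ≠ j := by
      have : ∃ k : Fin n, k ∉ ({i, j} : Finset (Fin n)) := by
        by_contra hcon
        push Not at hcon
        have h1 : (Finset.univ : Finset (Fin n)) ⊆ {i, j} := fun k _ => hcon k
        have h2 := Finset.card_le_card h1
        rw [Finset.card_univ, Fintype.card_fin] at h2
        have h3 := Finset.card_le_two (a := i) (b := j)
        omega
      obtain ⟨k, hk⟩ := this
      simp only [Finset.mem_insert, Finset.mem_singleton, not_or] at hk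
      exact ⟨k, hk.1, hk.2⟩
    have e : ∀ t : K, t * star t = 1 →
        C j i * sg (B j i) (star t) = star (C i j) * sg (B i j) (star t) := by
      intro t ht
      have h1 := Ln_star (f (ln _ (hu hij hki.symm hkj.symm t ht))) i j
      rw [hB hij, hB hij.symm, ln_apply, ln_apply, v3_i hij hki.symm, v3_j hij hkj.symm, star_one,
        mul_one, one_mul, star_mul, ← sg_star, mul_comm] at h1
      exact h1.symm
    have e1 := e 1 h11
    rw [star_one, map_one, map_one, mul_one, mul_one] at e1
    refine ⟨e1, ?_⟩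
    have e2 := e s hs1
    rw [e1] at e2
    have e3 : star (C i j) ≠ 0 := by
      rw [Ne, star_eq_zero]
      exact hC0 hij
    have e4 := mul_left_cancel₀ e3 e2
    exact sg_inj (s := star s) (by rw [star_star]; exact hs2.symm) e4
  -- triples
  have htri : ∀ {i j k : Fin n}, i ≠ j → i ≠ k → j ≠ k → ∀ t : K, t * star t = 1 →
      C i j * sg (B i j) t * (C j k * sg (B j k) (star r)) =
        C i k * (sg (B i k) t * sg (B i k) (star r)) := by
    intro i j k hij hik hjk t ht
    have h1 := Ln_mul (f (ln _ (hu hij hik hjk t ht))) i j k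
    rw [hdiag, hB hij, hB hjk, hB hik, ln_apply, ln_apply, ln_apply, ln_apply, v3_i hij hik,
      v3_j hij hjk, v3_k hik hjk, star_one, mul_one, mul_one, one_mul, one_mul, map_mul] at h1
    exact h1
  have hBeq : ∀ {i j k : Fin n}, i ≠ j → i ≠ k → j ≠ k → B i j = B i k := by
    intro i j k hij hik hjk
    have e1 := htri hij hik hjk 1 h11
    rw [map_one, map_one, mul_one, one_mul] at e1
    have e2 := htri hij hik hjk s hs1
    have e3 : (C i k * sg (B i k) (star r)) ≠ 0 := by
      refine mul_ne_zero (hC0 hik) ?_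
      rw [Ne, EmbeddingLike.map_eq_zero_iff, star_eq_zero]
      exact hr0
    have e4 : (C i k * sg (B i k) (star r)) * sg (B i j) s =
        (C i k * sg (B i k) (star r)) * sg (B i k) s := by
      rw [← e1]
      calc C i j * (C j k * sg (B j k) (star r)) * sg (B i j) s
          = C i j * sg (B i j) s * (C j k * sg (B j k) (star r)) := by ring
        _ = C i k * (sg (B i k) s * sg (B i k) (star r)) := e2
        _ = (C i k * sg (B i k) (star r)) * sg (B i k) s := by ring
        _ = _ := by rw [← e1]
    exact sg_inj hs2 (mul_left_cancel₀ e3 e4)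
  have hCeq : ∀ {i j k : Fin n}, i ≠ j → i ≠ k → j ≠ k → C i j * C j k = C i k := by
    intro i j k hij hik hjk
    have e1 := htri hij hik hjk 1 h11
    have hb : B j k = B i k := by
      rw [hBeq hjk hij.symm hik.symm, (hsymC hij).2]
      exact hBeq hij hik hjk
    rw [map_one, map_one, mul_one, one_mul, hb, ← mul_assoc] at e1
    have e3 : sg (B i k) (star r) ≠ 0 := by
      rw [Ne, EmbeddingLike.map_eq_zero_iff, star_eq_zero]
      exact hr0
    exact mul_right_cancel₀ e3 e1
  -- conclusion
  obtain ⟨m, rfl⟩ : ∃ m, n = m + 2 := ⟨n - 2, by omega⟩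
  have hB01 : ∀ {i j : Fin (m + 2)}, i ≠ j → B i j = B 0 1 := by
    have h0 : ∀ {j : Fin (m + 2)}, j ≠ 0 → B 0 j = B 0 1 := by
      intro j hj
      by_cases h1 : j = 1
      · rw [h1]
      · exact hBeq hj.symm (by simp) h1
    intro i j hij
    by_cases hi : i = 0
    · subst hi
      exact h0 hij.symm
    · have h2 : B i j = B i 0 := by
        by_cases hj : j = 0
        · rw [hj]
        · exact hBeq hij hi hj
      rw [h2, (hsymC (Ne.symm hi)).2, h0 hi]
  refine ⟨B 0 1, fun i => if i = 0 then 1 else C i 0, ?_, ?_⟩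
  · intro i
    by_cases hi : i = 0
    · simp [hi]
    · simp only [hi, if_false]
      exact hC hi
  · intro P i j
    by_cases hij : i = j
    · subst hij
      have h1 : (if i = 0 then (1 : K) else C i 0) * star (if i = 0 then (1 : K) else C i 0) = 1 := by
        by_cases hi : i = 0
        · simp [hi]
        · simp only [hi, if_false]
          exact hC hi
      rw [h1, one_mul, hdiag, sg_apply]
      split_ifs
      · rw [Ln_star]
      · rfl
    · rw [hB hij, hB01 hij]
      congr 1
      by_cases hi : i = 0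
      · subst hi
        have hj : ¬ j = 0 := fun h => hij h.symm
        simp only [hj, if_true, if_false, one_mul]
        exact (hsymC (Ne.symm hij)).1
      · by_cases hj : j = 0
        · subst hj
          simp [hi]
        · simp only [hi, hj, if_false]
          rw [← hCeq hi hij (Ne.symm hj), (hsymC hj).1]

end wig

end Vale.Agent.P240.R2.H744
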